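import Mathlib
import Vale.Agent.P102.Main

/-!
# P102 (partial): a mixing transformation is mixing of every order off a set of lowest order

Let `T` be an invertible mixing transformation of a probability space.
(1) For every measurable `A` and `ε > 0` there is `K` such that for EVERY measurable `B` at most `K`
integers `t` satisfy `|μ(B ∩ T^{-t} A) - μ(B) μ(A)| > ε`.
(2) For every `k`, all `A 1, …, A k` and `ε > 0` there is `K` such that at most `K (2N+1)^(k-1)` of
the `(2N+1)^k` vectors `t` in `[-N, N]^k` satisfy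
`|μ(T^{-t_1} A_1 ∩ ⋯ ∩ T^{-t_k} A_k) - μ(A_1) ⋯ μ(A_k)| > ε`.
-/

namespace Vale.Agent.Results.P102.UniformExceptions

open Vale.Agent.P102 MeasureTheory

theorem result :
    ∀ (Ω : Type) [MeasurableSpace Ω] (μ : Measure Ω) [IsProbabilityMeasure μ]
      (T : Equiv.Perm Ω), IsAutomorphism μ T → IsMixing μ T →
      (∀ A : Set Ω, MeasurableSet A → ∀ ε : ℝ, 0 < ε → ∃ K : ℕ, ∀ B : Set Ω, MeasurableSet B →
        ∀ S : Finset ℤ,
          (∀ t ∈ S, ε < |μ.real (B ∩ (T ^ t : Equiv.Perm Ω) ⁻¹' A) - μ.real B * μ.real A|) →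
          S.card ≤ K) ∧
      (∀ (k : ℕ) (A : Fin k → Set Ω), (∀ i, MeasurableSet (A i)) → ∀ ε : ℝ, 0 < ε →
        ∃ K : ℕ, ∀ N : ℕ, (bad μ T A ε N).card * (2 * N + 1) ≤ K * (2 * N + 1) ^ k) :=
  fun _ _ _ _ _ hT hmix => ⟨fun A hA ε hε => uniform hT hmix A hA ε hε,
    fun k A hA ε hε => count hT hmix k A hA ε hε⟩

end Vale.Agent.Results.P102.UniformExceptions
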